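import Vale.Agent.Lib.P358.Final
import Vale.Agent.Lib.P358.KeyAD

/-!
# P358: the classical capacity of the amplitude damping channel
-/

open Vale.Agent.AmplitudeDamping

/-- For the amplitude damping channel (`ν = 0`, or `ν = 1`) of any strength `γ ∈ [0,1]` the Holevo
capacity is additive, the classical capacity equals the one-use Holevo capacity, and it is the
maximum over `q ∈ [0,1]` of `h₂(t(q)) - S(output of a pure input of population q)`. -/
theorem Vale.Agent.Results.P358.AmplitudeDamping.result (γ ν : ℝ) (hγ0 : 0 ≤ γ) (hγ1 : γ ≤ 1)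
    (hν : ν = 0 ∨ ν = 1) :
    (∀ n : ℕ, IsGreatest (holevoValues (tensorPow (gad γ ν) n)) (n * chi (gad γ ν))) ∧
    (∀ n : ℕ, chi (tensorPow (gad γ ν) n) = n * chi (gad γ ν)) ∧
    capacity (gad γ ν) = chi (gad γ ν) ∧
    IsGreatest ((fun q => h₂ ((1 - γ) * q + γ * ν) - pureEntropy γ ν q) '' Set.Icc 0 1)
      (capacity (gad γ ν)) := by
  have hγ : γ ∈ Set.Icc (0 : ℝ) 1 := ⟨hγ0, hγ1⟩
  rcases hν with rfl | rfl
  · exact Vale.Agent.Lib.P358.main_of_keyIneq hγ ⟨le_rfl, zero_le_one⟩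
      (Vale.Agent.Lib.P358.keyIneq_zero hγ)
  · exact Vale.Agent.Lib.P358.main_of_keyIneq hγ ⟨zero_le_one, le_rfl⟩
      (Vale.Agent.Lib.P358.keyIneq_one hγ)
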