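import Vale.Agent.Lib.P358.Final
import Vale.Agent.Lib.P358.G6

/-!
# P358: the classical capacity of the generalized amplitude-damping channel
-/

open Vale.Agent.AmplitudeDamping

/-- For the generalized amplitude-damping channel with arbitrary parameters `γ, ν ∈ [0,1]` the
Holevo capacity is additive, the classical capacity equals the one-use Holevo capacity, and it is
the maximum over `q ∈ [0,1]` of `h₂(t(q)) - S(output of a pure input of population q)`. -/
theorem Vale.Agent.Results.P358.GeneralizedAmplitudeDamping.result (γ ν : ℝ) (hγ0 : 0 ≤ γ)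
    (hγ1 : γ ≤ 1) (hν0 : 0 ≤ ν) (hν1 : ν ≤ 1) :
    (∀ n : ℕ, IsGreatest (holevoValues (tensorPow (gad γ ν) n)) (n * chi (gad γ ν))) ∧
    (∀ n : ℕ, chi (tensorPow (gad γ ν) n) = n * chi (gad γ ν)) ∧
    capacity (gad γ ν) = chi (gad γ ν) ∧
    IsGreatest ((fun q => h₂ ((1 - γ) * q + γ * ν) - pureEntropy γ ν q) '' Set.Icc 0 1)
      (capacity (gad γ ν)) :=
  Vale.Agent.Lib.P358.main_of_keyIneq ⟨hγ0, hγ1⟩ ⟨hν0, hν1⟩
    (Vale.Agent.Lib.P358.keyIneq_all ⟨hγ0, hγ1⟩ ⟨hν0, hν1⟩)
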